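import Vale.Agent.P372.Zero
import Vale.Agent.P372.Entangled

namespace Vale.Agent.Results.P372.ZeroKey

open Vale.Agent.P372

/-- There is an entangled state with zero distillable secret key; in fact no protocol on any
number of copies produces even one key bit with error below `1/2`. -/
theorem result :
    ∃ (dA dB : ℕ) (ρ : Matrix (Fin dA × Fin dB) (Fin dA × Fin dB) ℂ),
      IsState ρ ∧ ¬ Separable ρ ∧
      (∃ ψ : (Fin dA × Fin dB) × (Fin dA × Fin dB) → ℂ, IsPurification ψ ρ) ∧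
      ∀ (E : Type) [Fintype E] [DecidableEq E] (ψ : (Fin dA × Fin dB) × E → ℂ),
        IsPurification ψ ρ →
          keyRate ψ = 0 ∧
          ∀ (n ℓ m r : ℕ) (π : Protocol ℓ m r (dA ^ n) (dB ^ n)) (ε : ℝ),
            1 ≤ ℓ → HasError π (tensorPow ψ n) ε → 1 / 2 ≤ ε := by
  obtain ⟨dA, dB, ρ, h1, h2, h3⟩ := exists_good
  refine ⟨dA, dB, ρ, h1, h3, exists_purification h1.1, fun E _ _ ψ hψ =>
    ⟨keyRate_eq_zero h2 hψ, fun n ℓ m r π ε hℓ h => half_le_error hℓ π _ (good_pow h2 hψ n) h⟩⟩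

end Vale.Agent.Results.P372.ZeroKey
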